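import Vale.Agent.P137.C.FinalC
import Vale.Agent.P137.Final

namespace Vale.Agent.Results.P137.A_both

open MeasureTheory Vale.Agent.P137

theorem result (d : ℕ) (hd : 1 ≤ d) : ∃ C : ℝ,
    ∀ (f : EuclideanSpace ℝ (Fin d) → ℝ) (G : EuclideanSpace ℝ (Fin d) → EuclideanSpace ℝ (Fin d)),
      Integrable f → Integrable G → IsWeakGrad f G →
      ((∀ᵐ x, cmax f x < ⊤) ∧ LocallyIntegrable (fun x => (cmax f x).toReal) ∧
        ∃ G' : EuclideanSpace ℝ (Fin d) → EuclideanSpace ℝ (Fin d), Integrable G' ∧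
          IsWeakGrad (fun x => (cmax f x).toReal) G' ∧ ∫ x, ‖G' x‖ ≤ C * ∫ x, ‖G x‖) ∧
      ((∀ᵐ x, umax f x < ⊤) ∧ LocallyIntegrable (fun x => (umax f x).toReal) ∧
        ∃ G' : EuclideanSpace ℝ (Fin d) → EuclideanSpace ℝ (Fin d), Integrable G' ∧
          IsWeakGrad (fun x => (umax f x).toReal) G' ∧ ∫ x, ‖G' x‖ ≤ C * ∫ x, ‖G x‖) := by
  obtain ⟨C₁, h₁⟩ := main_thmC hd
  obtain ⟨C₂, h₂⟩ := main_thm hd
  refine ⟨max C₁ C₂, fun f G hf hG hw => ?_⟩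
  have h0 : 0 ≤ ∫ x, ‖G x‖ := integral_nonneg fun x => norm_nonneg _
  obtain ⟨a1, a2, G₁, a3, a4, a5⟩ := h₁ f G hf hG hw
  obtain ⟨b1, b2, G₂, b3, b4, b5⟩ := h₂ f G hf hG hw
  exact ⟨⟨a1, a2, G₁, a3, a4, a5.trans (mul_le_mul_of_nonneg_right (le_max_left _ _) h0)⟩,
    ⟨b1, b2, G₂, b3, b4, b5.trans (mul_le_mul_of_nonneg_right (le_max_right _ _) h0)⟩⟩

end Vale.Agent.Results.P137.A_both
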